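import Mathlib

/-!
# P162: numerics for the geometry part (general even decks)
-/

namespace Vale.Agent.P162.H491

/-- The bound of the probability of a bad window. -/
theorem core_num (D N : ℕ) {x : ℝ} (hx0 : 0 ≤ x) (hx : x ≤ 1 / 7) (hN : N ≤ 2 ^ (D + 1)) :
    (N : ℝ) * 2 ^ (D / 8 - 1) * (D.choose (D - D / 8 + 1)) * x ^ (D - D / 8 + 1)
      ≤ (1 / 6 : ℝ) ^ (D / 8) := by
  obtain ⟨k, r, hr, rfl⟩ : ∃ k r, r < 8 ∧ D = 8 * k + r :=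
    ⟨D / 8, D % 8, Nat.mod_lt _ (by norm_num), (Nat.div_add_mod D 8).symm⟩
  have hk : (8 * k + r) / 8 = k := by omega
  rw [hk]
  rcases Nat.eq_zero_or_pos k with rfl | hkpos
  · have : (8 * 0 + r).choose (8 * 0 + r - 0 + 1) = 0 := Nat.choose_eq_zero_of_lt (by omega)
    rw [this]
    simp
  have e1 : 8 * k + r - k + 1 = 7 * k + r + 1 := by omega
  rw [e1]
  have h1 : (N : ℝ) ≤ 2 ^ (8 * k + r + 1) := by exact_mod_cast hN
  have h2 : ((8 * k + r).choose (7 * k + r + 1) : ℝ) ≤ 2 ^ (8 * k + r) := by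
    exact_mod_cast Nat.choose_le_two_pow _ _
  have h3 : x ^ (7 * k + r + 1) ≤ (1 / 7 : ℝ) ^ (7 * k + r + 1) := pow_le_pow_left₀ hx0 hx _
  have h4 : (2 : ℝ) ^ (k - 1) * 2 = 2 ^ k := by
    rw [← pow_succ]
    congr 1
    omega
  calc (N : ℝ) * 2 ^ (k - 1) * ((8 * k + r).choose (7 * k + r + 1)) * x ^ (7 * k + r + 1)
      ≤ 2 ^ (8 * k + r + 1) * 2 ^ (k - 1) * 2 ^ (8 * k + r) * (1 / 7 : ℝ) ^ (7 * k + r + 1) := by
        gcongr
    _ = (131072 / 823543 : ℝ) ^ k * (4 / 7 : ℝ) ^ r * (1 / 7) := by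
        have q1 : (131072 / 823543 : ℝ) = 2 ^ 17 * (1 / 7) ^ 7 := by norm_num
        have q2 : (4 / 7 : ℝ) = 2 ^ 2 * (1 / 7) := by norm_num
        rw [q1, q2, mul_pow, mul_pow]
        have q3 : (2 : ℝ) ^ (8 * k + r + 1) * 2 ^ (k - 1) * 2 ^ (8 * k + r)
            = 2 ^ (17 * k + 2 * r) := by
          rw [← pow_add, ← pow_add]
          congr 1
          omega
        rw [q3, ← pow_mul, ← pow_mul, ← pow_mul, pow_add, pow_add, pow_add]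
        ring
    _ ≤ (1 / 6 : ℝ) ^ k * 1 * 1 := by
        have w1 : (131072 / 823543 : ℝ) ^ k ≤ (1 / 6 : ℝ) ^ k :=
          pow_le_pow_left₀ (by norm_num) (by norm_num) k
        have w2 : (4 / 7 : ℝ) ^ r ≤ 1 := pow_le_one₀ (by norm_num) (by norm_num)
        exact mul_le_mul (mul_le_mul w1 w2 (by positivity) (by positivity)) (by norm_num)
          (by norm_num) (by positivity)
    _ = (1 / 6 : ℝ) ^ k := by ring

/-- `κ = 1 / 32` is allowed in the loop bound. -/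
theorem core_loop (D N : ℕ) (hD : 8 ≤ D) (hN : N ≤ 2 ^ (D + 1)) (hN0 : 0 < N) :
    (2 : ℝ) ^ (-(((D / 8 : ℕ) : ℝ) / 2)) ≤ (N : ℝ) ^ (-(1 / 32 : ℝ)) := by
  have h1 : (N : ℝ) ^ (1 / 32 : ℝ) ≤ (2 : ℝ) ^ (((D / 8 : ℕ) : ℝ) / 2) := by
    have h2 : (N : ℝ) ≤ (2 : ℝ) ^ ((D + 1 : ℕ) : ℝ) := by
      rw [Real.rpow_natCast]
      exact_mod_cast hN
    calc (N : ℝ) ^ (1 / 32 : ℝ) ≤ ((2 : ℝ) ^ ((D + 1 : ℕ) : ℝ)) ^ (1 / 32 : ℝ) :=
          Real.rpow_le_rpow (by positivity) h2 (by norm_num)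
      _ = (2 : ℝ) ^ (((D + 1 : ℕ) : ℝ) * (1 / 32)) := by rw [← Real.rpow_mul (by norm_num)]
      _ ≤ (2 : ℝ) ^ (((D / 8 : ℕ) : ℝ) / 2) := by
          apply Real.rpow_le_rpow_of_exponent_le (by norm_num)
          have h3 : D + 1 ≤ 16 * (D / 8) := by omega
          have h4 : ((D + 1 : ℕ) : ℝ) ≤ 16 * ((D / 8 : ℕ) : ℝ) := by exact_mod_cast h3
          linarith
  rw [Real.rpow_neg (by norm_num), Real.rpow_neg (by positivity)]
  have h5 : (0 : ℝ) < (N : ℝ) ^ (1 / 32 : ℝ) := by positivity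
  exact inv_anti₀ h5 h1

/-- The number of red cards: `N = 2 ⌊7 m / 8⌋` of `2 m`. -/
theorem red_facts (m : ℕ) (hm : 64 ≤ m) :
    8 * (2 * (7 * m / 8)) ≤ 7 * (2 * m) ∧ 5 * m ≤ 3 * (2 * (7 * m / 8)) ∧
      (((2 * m - 2 * (7 * m / 8) : ℕ) : ℝ) / ((2 * m - 1 : ℕ) : ℝ)) ≤ 1 / 7 := by
  refine ⟨by omega, by omega, ?_⟩
  have h1 : (0 : ℝ) < ((2 * m - 1 : ℕ) : ℝ) := by
    have : 0 < 2 * m - 1 := by omega
    exact_mod_cast this
  rw [div_le_iff₀ h1]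
  have h2 : 7 * (2 * m - 2 * (7 * m / 8)) ≤ 2 * m - 1 := by omega
  have h3 : (7 : ℝ) * ((2 * m - 2 * (7 * m / 8) : ℕ) : ℝ) ≤ ((2 * m - 1 : ℕ) : ℝ) := by
    exact_mod_cast h2
  linarith

end Vale.Agent.P162.H491
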