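import Vale.Agent.P162.H491.UpOne
import Vale.Agent.P162.H491.Num

/-!
# P162: bad geometries are rare for the Thorp network of any even deck
-/

open Finset Equiv

namespace Vale.Agent.P162.H491

open S2 H72

theorem log_facts {m : ℕ} (hm : 64 ≤ m) :
    7 ≤ Nat.log 2 (2 * m) ∧ 2 ^ Nat.log 2 (2 * m) ≤ 2 * m ∧ 2 * m < 2 ^ (Nat.log 2 (2 * m) + 1) := by
  refine ⟨?_, Nat.pow_log_le_self 2 (by omega), Nat.lt_pow_succ_log_self (by norm_num) _⟩
  have h : Nat.log 2 (2 ^ 7) ≤ Nat.log 2 (2 * m) := Nat.log_mono_right (by norm_num; omega)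
  rwa [Nat.log_pow (by norm_num)] at h

open Classical in
/-- Bad windows are rare. -/
theorem bad_le {m : ℕ} (hm : 128 ≤ m) (a : ℕ) :
    (avg fun f : Fin (2 * (7 * m / 8)) ↪ Fin (2 * m) =>
      avg fun r : Fin (Nat.log 2 (2 * m)) → Fin (2 * m) → Bool =>
        if H790.Good (thorpNet m) a (Nat.log 2 (2 * m)) (Nat.log 2 (2 * m) / 8) f r
          then (0 : ℝ) else 1) ≤ (1 / 6) ^ (Nat.log 2 (2 * m) / 8) := by
  have hL : 8 ≤ Nat.log 2 (2 * m) := by
    have h : Nat.log 2 (2 ^ 8) ≤ Nat.log 2 (2 * m) := Nat.log_mono_right (by norm_num; omega)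
    rwa [Nat.log_pow (by norm_num)] at h
  obtain ⟨-, h2, h3⟩ := log_facts (m := m) (by omega)
  obtain ⟨r1, r2, r3⟩ := red_facts m (by omega)
  set D := Nat.log 2 (2 * m) with hD
  set N := 2 * (7 * m / 8) with hN
  have hNX : N ≤ 2 * m := by omega
  refine (H790.avg_bad (α := Fin N) (thorpNet m) (one_thorp h2 a) (by omega) (by omega)
    (by rw [Fintype.card_fin]; omega) (by rw [Fintype.card_fin, Fintype.card_fin]; exact hNX)).trans
    ?_
  rw [Fintype.card_fin, Fintype.card_fin]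
  have e1 : D + 1 - D / 8 = D - D / 8 + 1 := by omega
  rw [e1]
  have e2 : (((2 * m : ℕ) : ℝ) - (N : ℝ)) / (((2 * m : ℕ) : ℝ) - 1)
      = ((2 * m - N : ℕ) : ℝ) / ((2 * m - 1 : ℕ) : ℝ) := by
    rw [Nat.cast_sub hNX, Nat.cast_sub (by omega : 1 ≤ 2 * m)]
    simp
  rw [e2]
  exact core_num D N (by positivity) r3 (by omega)

/-- The bound of the probability of bad windows tends to zero. -/
theorem exists_small {ε : ℝ} (hε : 0 < ε) :
    ∃ m₀ : ℕ, ∀ m ≥ m₀, (1 / 6 : ℝ) ^ (Nat.log 2 (2 * m) / 8) ≤ ε := by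
  obtain ⟨k, hk⟩ := exists_pow_lt_of_lt_one hε (show (1 / 6 : ℝ) < 1 by norm_num)
  refine ⟨2 ^ (8 * k), fun m hm => ?_⟩
  have h1 : 8 * k ≤ Nat.log 2 (2 * m) := by
    have h : Nat.log 2 (2 ^ (8 * k)) ≤ Nat.log 2 (2 * m) := Nat.log_mono_right (by omega)
    rwa [Nat.log_pow (by norm_num)] at h
  have h2 : k ≤ Nat.log 2 (2 * m) / 8 := by omega
  exact (pow_le_pow_of_le_one (by norm_num) (by norm_num) h2).trans hk.le

end Vale.Agent.P162.H491
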