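import Mathlib

/-!
# P162, part E2: the numerical half

From the recursion of the traces `w j` to the exponential bound.
-/

open Finset

namespace Vale.Agent.P162.H491

theorem choose_fifth {a h : ℕ} (ha : 5 * a ≤ h) (j : ℕ) : a.choose j * 5 ^ j ≤ h.choose j := by
  induction j with
  | zero => simp
  | succ j ih =>
    have h1 : a.choose (j + 1) * (j + 1) = a.choose j * (a - j) := Nat.choose_succ_right_eq a j
    have h2 : h.choose (j + 1) * (j + 1) = h.choose j * (h - j) := Nat.choose_succ_right_eq h j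
    have h3 : 5 * (a - j) ≤ h - j := by omega
    have h4 : a.choose (j + 1) * 5 ^ (j + 1) * (j + 1) ≤ h.choose (j + 1) * (j + 1) := by
      calc a.choose (j + 1) * 5 ^ (j + 1) * (j + 1)
          = (a.choose (j + 1) * (j + 1)) * 5 ^ (j + 1) := by ring
        _ = (a.choose j * 5 ^ j) * (5 * (a - j)) := by rw [h1]; ring
        _ ≤ h.choose j * (h - j) := Nat.mul_le_mul ih h3
        _ = h.choose (j + 1) * (j + 1) := h2.symm
    exact Nat.le_of_mul_le_mul_right h4 (Nat.succ_pos j)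

/-- one step of the recursion in terms of `x j = C(h,j) w j` -/
theorem rec_step {h k j : ℕ} (hk : 400 ≤ k) (hkh : k ≤ 2 * h) (hj : j ≤ k / 100) {w : ℕ → ℝ}
    (hw : ∀ j, 0 ≤ w j)
    (hrec : ((k : ℝ) - 2 * j) * w j ≤ 2 * ((2 * h : ℝ) - 2 * j - 2) * (2 * w (j + 1) + w (j + 2))) :
    (h.choose j : ℝ) * w j ≤ (h.choose (j + 1) : ℝ) * w (j + 1) / 8
      + (h.choose (j + 2) : ℝ) * w (j + 2) / 64 := by
  have hj' : 100 * j ≤ k := by omega
  have c1 : (h.choose (j + 1) : ℝ) * ((j : ℝ) + 1) = h.choose j * ((h : ℝ) - j) := by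
    have := Nat.choose_succ_right_eq h j
    have h2 : ((h - j : ℕ) : ℝ) = (h : ℝ) - j := Nat.cast_sub (by omega)
    rw [← h2]
    exact_mod_cast this
  have c2 : (h.choose (j + 2) : ℝ) * ((j : ℝ) + 2) = h.choose (j + 1) * ((h : ℝ) - j - 1) := by
    have := Nat.choose_succ_right_eq h (j + 1)
    have h2 : ((h - (j + 1) : ℕ) : ℝ) = (h : ℝ) - j - 1 := by
      rw [Nat.cast_sub (by omega)]
      push_cast
      ring
    rw [← h2]
    have h3 : ((j : ℝ) + 2) = (((j + 1) + 1 : ℕ) : ℝ) := by push_cast; ring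
    rw [h3]
    exact_mod_cast this
  have hjr : (100 : ℝ) * j ≤ k := by exact_mod_cast hj'
  have hkr : (400 : ℝ) ≤ k := by exact_mod_cast hk
  have hkhr : (k : ℝ) ≤ 2 * h := by exact_mod_cast hkh
  have hj0 : (0 : ℝ) ≤ j := by positivity
  set a := (j : ℝ) with ha
  set b := (h : ℝ) - j with hb
  set K := (k : ℝ) with hK
  have hb1 : (49 / 100 : ℝ) * K ≤ b := by rw [hb]; linarith
  have hbpos : 0 < b := by linarith
  have hb1pos : 0 < b - 1 := by linarith
  set C0 := (h.choose j : ℝ) with hC0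
  set C1 := (h.choose (j + 1) : ℝ) with hC1
  set C2 := (h.choose (j + 2) : ℝ) with hC2
  have hC0' : 0 ≤ C0 := by positivity
  have hC1' : 0 ≤ C1 := by positivity
  have hC2' : 0 ≤ C2 := by positivity
  have w0 := hw j
  have w1 := hw (j + 1)
  have w2 := hw (j + 2)
  have hden : 0 < K - 2 * a := by linarith
  have hrec' : (K - 2 * a) * w j ≤ 4 * (b - 1) * (2 * w (j + 1) + w (j + 2)) := by
    refine hrec.trans (le_of_eq ?_)
    rw [hb]
    ring
  -- multiply by `C0`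
  have h1 : (K - 2 * a) * (C0 * w j) ≤ 8 * ((b - 1) * C0) * w (j + 1)
      + 4 * ((b - 1) * C0) * w (j + 2) := by
    have := mul_le_mul_of_nonneg_left hrec' hC0'
    linarith
  -- first coefficient
  have h2 : (b - 1) * C0 ≤ C1 * (a + 1) := by rw [c1]; nlinarith
  have h3 : (b - 1) * C0 * b = C2 * (a + 2) * (a + 1) := by
    have : C2 * (a + 2) = C1 * (b - 1) := by rw [c2]
    calc (b - 1) * C0 * b = (C0 * b) * (b - 1) := by ring
      _ = (C1 * (a + 1)) * (b - 1) := by rw [c1]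
      _ = (C1 * (b - 1)) * (a + 1) := by ring
      _ = C2 * (a + 2) * (a + 1) := by rw [← this]
  have h4 : 8 * ((b - 1) * C0) * w (j + 1) ≤ (K - 2 * a) * (C1 * w (j + 1) / 8) := by
    have e1 : 8 * (a + 1) ≤ (K - 2 * a) / 8 := by linarith
    calc 8 * ((b - 1) * C0) * w (j + 1) ≤ 8 * (C1 * (a + 1)) * w (j + 1) := by gcongr
      _ = (8 * (a + 1)) * (C1 * w (j + 1)) := by ring
      _ ≤ ((K - 2 * a) / 8) * (C1 * w (j + 1)) := by gcongr
      _ = _ := by ring
  have h5 : 4 * ((b - 1) * C0) * w (j + 2) ≤ (K - 2 * a) * (C2 * w (j + 2) / 64) := by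
    have e1 : (4 * ((a + 2) * (a + 1))) ≤ (K - 2 * a) / 64 * b := by
      have f1 : a + 2 ≤ (15 / 1000 : ℝ) * K := by linarith
      have f2 : a + 1 ≤ (125 / 10000 : ℝ) * K := by linarith
      have f3 : (98 / 100 : ℝ) * K ≤ K - 2 * a := by linarith
      have f4 : (a + 2) * (a + 1) ≤ ((15 / 1000 : ℝ) * K) * ((125 / 10000 : ℝ) * K) :=
        mul_le_mul f1 f2 (by linarith) (by linarith)
      have f5 : ((98 / 100 : ℝ) * K) * ((49 / 100 : ℝ) * K) ≤ (K - 2 * a) * b :=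
        mul_le_mul f3 hb1 (by linarith) (by linarith)
      nlinarith [mul_self_nonneg K]
    have e2 : 4 * ((b - 1) * C0) * b ≤ ((K - 2 * a) / 64 * C2) * b := by
      calc 4 * ((b - 1) * C0) * b = 4 * ((b - 1) * C0 * b) := by ring
        _ = (4 * ((a + 2) * (a + 1))) * C2 := by rw [h3]; ring
        _ ≤ ((K - 2 * a) / 64 * b) * C2 := by gcongr
        _ = _ := by ring
    have e3 : 4 * ((b - 1) * C0) ≤ (K - 2 * a) / 64 * C2 := le_of_mul_le_mul_right e2 hbpos
    calc 4 * ((b - 1) * C0) * w (j + 2) ≤ ((K - 2 * a) / 64 * C2) * w (j + 2) := by gcongr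
      _ = _ := by ring
  have h6 : (K - 2 * a) * (C0 * w j) ≤ (K - 2 * a) * (C1 * w (j + 1) / 8 + C2 * w (j + 2) / 64) := by
    rw [mul_add]
    linarith
  exact le_of_mul_le_mul_left h6 hden

/-- **E2, numerical half.** -/
theorem e2_num {h m k : ℕ} (hm : m ≤ h) (hmh : 4 * h ≤ 5 * m) (hk : 400 ≤ k) (hkh : k ≤ 2 * h)
    {w : ℕ → ℝ} (hw : ∀ j, 0 ≤ w j)
    (hrec : ∀ j : ℕ, 2 * j ≤ k → j + 2 ≤ h → ((k : ℝ) - 2 * j) * w j ≤
      2 * ((2 * h : ℝ) - 2 * j - 2) * (2 * w (j + 1) + w (j + 2))) :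
    ∑ j ∈ range (h + 1), ((h - m).choose j : ℝ) * w j ≤
      (2 : ℝ) ^ (-((k : ℝ) / 100)) * ∑ j ∈ range (h + 1), (h.choose j : ℝ) * w j := by
  set J := k / 100 with hJ
  set x : ℕ → ℝ := fun j => (h.choose j : ℝ) * w j with hx
  have hx0 : ∀ j, 0 ≤ x j := fun j => mul_nonneg (by positivity) (hw j)
  set S := ∑ j ∈ range (h + 1), (h.choose j : ℝ) * w j with hS
  have hS0 : 0 ≤ S := sum_nonneg fun j _ => hx0 j
  have hxS : ∀ j, x j ≤ S := by
    intro j
    rcases Nat.lt_or_ge j (h + 1) with hj | hj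
    · exact single_le_sum (f := x) (fun i _ => hx0 i) (mem_range.2 hj)
    · have : x j = 0 := by
        simp only [hx]
        rw [Nat.choose_eq_zero_of_lt (by omega)]
        simp
      rw [this]
      exact hS0
  have hstep : ∀ j ≤ J, x j ≤ x (j + 1) / 8 + x (j + 2) / 64 := by
    intro j hj
    exact rec_step hk hkh hj hw (hrec j (by omega) (by omega))
  have hdec : ∀ i j : ℕ, J + 1 - j ≤ i → x j ≤ S * (1 / 4) ^ (J + 1 - j) := by
    intro i
    induction i with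
    | zero =>
      intro j hj
      have : J + 1 - j = 0 := by omega
      rw [this, pow_zero, mul_one]
      exact hxS j
    | succ i ih =>
      intro j hj
      rcases Nat.lt_or_ge J j with hlt | hle
      · have : J + 1 - j = 0 := by omega
        rw [this, pow_zero, mul_one]
        exact hxS j
      · have h1 := ih (j + 1) (by omega)
        have h2 := ih (j + 2) (by omega)
        have h3 := hstep j hle
        obtain ⟨t, ht⟩ : ∃ t, J + 1 - j = t + 1 := ⟨J - j, by omega⟩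
        have e1 : J + 1 - (j + 1) = t := by omega
        rw [e1] at h1
        rw [ht, pow_succ]
        have h4 : x (j + 2) ≤ S * (4 * (1 / 4) ^ t) := by
          rcases Nat.eq_zero_or_pos t with rfl | htpos
          · have := hxS (j + 2)
            rw [pow_zero]
            linarith
          · obtain ⟨t', rfl⟩ : ∃ t', t = t' + 1 := ⟨t - 1, by omega⟩
            have e2 : J + 1 - (j + 2) = t' := by omega
            rw [e2] at h2
            refine h2.trans (le_of_eq ?_)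
            rw [pow_succ]
            ring
        have hp : (0 : ℝ) ≤ S * (1 / 4) ^ t := by positivity
        calc x j ≤ x (j + 1) / 8 + x (j + 2) / 64 := h3
          _ ≤ (S * (1 / 4) ^ t) / 8 + (S * (4 * (1 / 4) ^ t)) / 64 := by gcongr
          _ ≤ S * ((1 / 4) ^ t * (1 / 4)) := by linarith
  have hterm : ∀ j, ((h - m).choose j : ℝ) * w j ≤ (4 / 5 : ℝ) ^ j * ((1 / 4) ^ (J + 1) * S) := by
    intro j
    have h1 : (h - m).choose j * 5 ^ j ≤ h.choose j := choose_fifth (by omega) j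
    have h1' : ((h - m).choose j : ℝ) * 5 ^ j ≤ h.choose j := by exact_mod_cast h1
    have h2 : ((h - m).choose j : ℝ) * w j ≤ (1 / 5 : ℝ) ^ j * x j := by
      have h3 : ((h - m).choose j : ℝ) ≤ (1 / 5 : ℝ) ^ j * h.choose j := by
        rw [one_div, inv_pow, ← div_eq_inv_mul, le_div_iff₀ (by positivity)]
        exact h1'
      calc ((h - m).choose j : ℝ) * w j ≤ ((1 / 5 : ℝ) ^ j * h.choose j) * w j :=
            mul_le_mul_of_nonneg_right h3 (hw j)
        _ = _ := by simp only [hx]; ring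
    have h4 := hdec _ j le_rfl
    have h5 : (1 / 5 : ℝ) ^ j * (1 / 4) ^ (J + 1 - j) ≤ (4 / 5) ^ j * (1 / 4) ^ (J + 1) := by
      have e1 : (1 / 5 : ℝ) ^ j = (4 / 5) ^ j * (1 / 4) ^ j := by
        rw [← mul_pow]; norm_num
      rw [e1, mul_assoc, ← pow_add]
      refine mul_le_mul_of_nonneg_left ?_ (by positivity)
      exact pow_le_pow_of_le_one (by norm_num) (by norm_num) (by omega)
    calc ((h - m).choose j : ℝ) * w j ≤ (1 / 5 : ℝ) ^ j * x j := h2
      _ ≤ (1 / 5 : ℝ) ^ j * (S * (1 / 4) ^ (J + 1 - j)) := by gcongr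
      _ = ((1 / 5 : ℝ) ^ j * (1 / 4) ^ (J + 1 - j)) * S := by ring
      _ ≤ ((4 / 5) ^ j * (1 / 4) ^ (J + 1)) * S := by gcongr
      _ = _ := by ring
  have hgeom : ∑ j ∈ range (h + 1), (4 / 5 : ℝ) ^ j ≤ 5 := by
    rw [geom_sum_eq (by norm_num)]
    have : (0 : ℝ) ≤ (4 / 5 : ℝ) ^ (h + 1) := by positivity
    rw [div_le_iff_of_neg (by norm_num)]
    linarith
  have hfin : 5 * (1 / 4 : ℝ) ^ (J + 1) ≤ (2 : ℝ) ^ (-((k : ℝ) / 100)) := by
    have e1 : (1 / 4 : ℝ) ^ (J + 1) = (1 / 2) ^ (J + 1) * (1 / 2) ^ (J + 1) := by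
      rw [← mul_pow]; norm_num
    have e2 : (1 / 2 : ℝ) ^ (J + 1) ≤ (1 / 2) ^ 5 :=
      pow_le_pow_of_le_one (by norm_num) (by norm_num) (by omega)
    have e3 : (1 / 2 : ℝ) ^ (J + 1) ≤ (2 : ℝ) ^ (-((k : ℝ) / 100)) := by
      have h1 : (1 / 2 : ℝ) ^ (J + 1) = (2 : ℝ) ^ (-((J + 1 : ℕ) : ℝ)) := by
        rw [Real.rpow_neg (by norm_num), Real.rpow_natCast]
        simp
      rw [h1]
      apply Real.rpow_le_rpow_of_exponent_le (by norm_num)
      have h2 : k ≤ 100 * (J + 1) := by omega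
      have h3 : (k : ℝ) ≤ 100 * ((J + 1 : ℕ) : ℝ) := by exact_mod_cast h2
      linarith
    have e4 : (0 : ℝ) ≤ (1 / 2 : ℝ) ^ (J + 1) := by positivity
    have e5 : (0 : ℝ) ≤ (2 : ℝ) ^ (-((k : ℝ) / 100)) := by positivity
    rw [e1]
    calc 5 * ((1 / 2 : ℝ) ^ (J + 1) * (1 / 2) ^ (J + 1))
        ≤ 5 * ((1 / 2) ^ 5 * (2 : ℝ) ^ (-((k : ℝ) / 100))) := by gcongr
      _ ≤ _ := by linarith
  calc ∑ j ∈ range (h + 1), ((h - m).choose j : ℝ) * w j
      ≤ ∑ j ∈ range (h + 1), (4 / 5 : ℝ) ^ j * ((1 / 4) ^ (J + 1) * S) :=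
        sum_le_sum fun j _ => hterm j
    _ = (∑ j ∈ range (h + 1), (4 / 5 : ℝ) ^ j) * ((1 / 4) ^ (J + 1) * S) := by rw [sum_mul]
    _ ≤ 5 * ((1 / 4) ^ (J + 1) * S) := by gcongr
    _ = (5 * (1 / 4) ^ (J + 1)) * S := by ring
    _ ≤ (2 : ℝ) ^ (-((k : ℝ) / 100)) * S := by gcongr

end Vale.Agent.P162.H491
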