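import Vale.Agent.P162.H491.PartBEven
import Vale.Agent.P162.H175.ABFinal
import Vale.Agent.P162.H915.MixEven
import Vale.Agent.P162.H72.Final
import Vale.Agent.P162.H72.Convert

/-!
# P162: the mixing time of the Thorp shuffle of any even deck is of order `log n`
-/

open Finset Equiv

namespace Vale.Agent.P162.H491

open S2 H72

theorem even_final : ∃ r m₁ : ℕ, ∀ m, m₁ ≤ m → ∀ F : Perm (Fin (2 * m)) → ℝ, (∀ g, 0 ≤ F g) →
    (∀ g, F g ≤ 1) → (thorpNet m).run 0 (r * Nat.log 2 (2 * m)) F 1 ≤ avg F + 1 / 4 :=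
  S3.even_main (κ := 1 / 32) (Abs.AB_main (by norm_num) (by norm_num)) H915.mixEven partBEven

/-- The upper bound in the form needed by `assemble_gen`. -/
theorem even_upper : ∃ (C0 : ℝ) (m0 : ℕ), ∀ m, m0 ≤ m → 1 ≤ m → ∃ L : ℕ,
    (L : ℝ) ≤ C0 * Real.log (2 * m : ℕ) ∧
      tv (convPow (thorpLaw m) L) (unif (Perm (Fin (2 * m)))) ≤ 1 / 4 := by
  obtain ⟨r, m₁, h⟩ := even_final
  refine ⟨r / Real.log 2, m₁, fun m hm _ => ⟨r * Nat.log 2 (2 * m), ?_, ?_⟩⟩
  · have hl2 : 0 < Real.log 2 := Real.log_pos (by norm_num)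
    have h1 : ((Nat.log 2 (2 * m) : ℕ) : ℝ) * Real.log 2 ≤ Real.log (2 * m : ℕ) := by
      have h2 : (2 : ℝ) ^ Nat.log 2 (2 * m) ≤ ((2 * m : ℕ) : ℝ) := by
        exact_mod_cast Nat.pow_log_le_self 2 (by omega)
      have h3 := Real.log_le_log (by positivity) h2
      rwa [Real.log_pow] at h3
    push_cast at h1 ⊢
    rw [div_mul_eq_mul_div, le_div_iff₀ hl2, mul_assoc]
    exact mul_le_mul_of_nonneg_left h1 (Nat.cast_nonneg r)
  · exact tv_thorp_le_of_net m _ _ (h m hm)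

/-- **The mixing time of the Thorp shuffle is of order `log n` for every even `n = 2 m`.** -/
theorem main : ∃ c C : ℝ, 0 < c ∧ 0 < C ∧ ∀ m : ℕ, 1 ≤ m →
    IsLeast (Statement.mixedTimes m) (Statement.mixTime m) ∧
    c * Real.log (2 * m : ℕ) ≤ Statement.mixTime m ∧
    (Statement.mixTime m : ℝ) ≤ C * Real.log (2 * m : ℕ) := by
  obtain ⟨C0, m0, h⟩ := even_upper
  obtain ⟨c, C, hc, hC, h2⟩ := assemble_gen C0 m0 h
  refine ⟨c, C, hc, hC, fun m hm => ?_⟩
  rw [mixTime_eq, mixedTimes_eq]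
  exact h2 m hm

end Vale.Agent.P162.H491
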