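import Vale.Agent.P162.H491.Bad
import Vale.Agent.P162.H790.Data
import Vale.Agent.P162.S3.Even

/-!
# P162: part B for every even deck
-/

open Finset Equiv
open scoped InnerProductSpace

namespace Vale.Agent.P162.H491

open S2 H72

/-- The data of the abstract theorem, for the red lines at least `5/6` of the deck. -/
theorem qlaw_data_five {X : Type} [Fintype X] [DecidableEq X] (W : Net X) {α : Type} [Fintype α]
    [DecidableEq α] {D k : ℕ} {κ : ℝ} (hUP : H790.UP W 0 D) (hD : 1 ≤ D)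
    (heven : Even (Fintype.card α))
    (hk : √(1 / 2 : ℝ) ^ k ≤ (Fintype.card α : ℝ) ^ (-κ))
    (hm : 5 * Fintype.card X ≤ 6 * Fintype.card α) :
    Abs.Data (W.qlaw D (H790.gInd (α := α) W D k)) κ where
  even := heven
  nonneg := Net.qlaw_nonneg (H790.gInd_nonneg W D k)
  sum_le := by
    rw [Net.sum_qlaw]
    exact Net.avg_le_of_le zero_le_one fun f => Net.avg_le_of_le zero_le_one fun r =>
      H790.gInd_le_one W D k f r
  symm := Net.qlaw_inv _ _
  class_fn := Net.qlaw_conj (H790.gInd_relab W D k)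
  psd := by
    intro F
    rw [H790.inner_op_qlaw]
    exact avg_nonneg fun f => avg_nonneg fun r =>
      mul_nonneg (H790.gInd_nonneg W D k f r) (sq_nonneg _)
  fix_le := by
    intro S
    refine (H790.fix_le W hUP S).trans ?_
    gcongr
  matching := by
    obtain ⟨ι, hι, p, M, h1, h2, h3, h4, h5⟩ := H790.qlaw_matching (α := α) W (k := k) hD
    exact ⟨ι, hι, p, M, h1, h2, h3, fun i => by have := h4 i; omega, h5⟩

theorem sqrt_half_pow (k : ℕ) : √(1 / 2 : ℝ) ^ k = (2 : ℝ) ^ (-((k : ℝ) / 2)) := by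
  have h1 : √(1 / 2 : ℝ) = (2 : ℝ) ^ (-(1 / 2 : ℝ)) := by
    rw [Real.sqrt_eq_rpow, Real.rpow_neg (by norm_num), ← Real.inv_rpow (by norm_num)]
    norm_num
  rw [h1, ← Real.rpow_natCast, ← Real.rpow_mul (by norm_num)]
  congr 1
  ring

/-- **Part B for every even deck**, `κ = 1 / 32`. -/
theorem partBEven : S3.PartBEven (1 / 32) := by
  intro ε hε
  obtain ⟨m₀, hm₀⟩ := exists_small hε
  refine ⟨m₀ + 128, fun m hm => ?_⟩
  have hL : 8 ≤ Nat.log 2 (2 * m) := by
    have h : Nat.log 2 (2 ^ 8) ≤ Nat.log 2 (2 * m) := Nat.log_mono_right (by norm_num; omega)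
    rwa [Nat.log_pow (by norm_num)] at h
  obtain ⟨-, h2, h3⟩ := log_facts (m := m) (by omega)
  obtain ⟨r1, r2, r3⟩ := red_facts m (by omega)
  have hcX : Fintype.card (Fin (2 * m)) = 2 * m := Fintype.card_fin _
  have hcα : Fintype.card (Fin (2 * (7 * m / 8))) = 2 * (7 * m / 8) := Fintype.card_fin _
  refine ⟨H790.gInd (thorpNet m) (Nat.log 2 (2 * m)) (Nat.log 2 (2 * m) / 8),
    H790.gInd_nonneg _ _ _, H790.gInd_le_one _ _ _, H790.gInd_relab _ _ _, ?_, ?_⟩
  · refine qlaw_data_five (thorpNet m) (up_thorp h2 0) (by omega) ?_ ?_ ?_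
    · rw [hcα]
      exact even_two_mul _
    · rw [hcα, sqrt_half_pow]
      exact core_loop _ _ hL (by omega) (by omega)
    · rw [hcα, hcX]
      omega
  · refine (H790.one_sub_gInd_le (thorpNet m) (one_thorp h2 0) (by omega) (by omega)
      (by rw [hcX]; omega) (by rw [hcα, hcX]; omega)).trans ?_
    refine le_trans ?_ (hm₀ m (by omega))
    rw [hcX, hcα]
    have hNX : 2 * (7 * m / 8) ≤ 2 * m := by omega
    have e1 : Nat.log 2 (2 * m) + 1 - Nat.log 2 (2 * m) / 8
        = Nat.log 2 (2 * m) - Nat.log 2 (2 * m) / 8 + 1 := by omega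
    rw [e1]
    have e2 : (((2 * m : ℕ) : ℝ) - ((2 * (7 * m / 8) : ℕ) : ℝ)) / (((2 * m : ℕ) : ℝ) - 1)
        = ((2 * m - 2 * (7 * m / 8) : ℕ) : ℝ) / ((2 * m - 1 : ℕ) : ℝ) := by
      rw [Nat.cast_sub hNX, Nat.cast_sub (by omega : 1 ≤ 2 * m)]
      simp
    rw [e2]
    exact core_num _ _ (by positivity) r3 (by omega)

end Vale.Agent.P162.H491
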