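import Vale.Agent.P162.H72.ThorpNet

/-!
# P162: arithmetic of the Thorp network of `2 * m` cards

For the network `H72.thorpNet m` (positions `Fin (2 * m)`, switches `{x, x + m}`, then the perfect
shuffle, i.e. one step is one Thorp shuffle).  The two arithmetic facts used in the geometry part:
over `D` steps, `2 ^ D ≤ 2 * m`, a path is determined by its end points (`path_unique`), and two
cards meet at most once (`path_ne`).
-/

open Finset Equiv

namespace Vale.Agent.P162.H491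

open S2 H72

theorem thorpNet_nb_val {m : ℕ} (s : ℕ) (x : Fin (2 * m)) :
    (((thorpNet m).nb s x : Fin (2 * m)) : ℕ) = if x.1 < m then x.1 + m else x.1 - m :=
  tnb_val m x

theorem shuffle_val {m : ℕ} (c : Fin m → Bool) (x : Fin (2 * m)) :
    (shuffle m c x : ℕ) =
      if h : x.1 < m then 2 * x.1 + (if c ⟨x.1, h⟩ then 1 else 0)
      else 2 * (x.1 - m) + (if c ⟨x.1 - m, by omega⟩ then 0 else 1) := by
  by_cases h : x.1 < m
  · rw [dif_pos h]
    exact shuffle_val_lt m c x h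
  · rw [dif_neg h]
    exact shuffle_val_ge m c x h

/-- One step, on positions: `x ↦ 2 x + b (mod 2 m)` with a bit `b`. -/
theorem step_mod {m : ℕ} (s : ℕ) (c : Fin (2 * m) → Bool) (x : Fin (2 * m)) :
    ∃ b : ℕ, b < 2 ∧ ((thorpNet m).step s c x : ℕ) ≡ 2 * x + b [MOD 2 * m] := by
  rw [thorpNet_step]
  generalize rcoin m c = c
  rw [shuffle_val]
  by_cases h : x.1 < m
  · rw [dif_pos h]
    exact ⟨_, by split_ifs <;> omega, rfl⟩
  · rw [dif_neg h]
    refine ⟨if c ⟨x.1 - m, by omega⟩ then 0 else 1, by split_ifs <;> omega, ?_⟩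
    have h1 : 2 * x.1 + (if c ⟨x.1 - m, by omega⟩ then 0 else 1)
        = 2 * (x.1 - m) + (if c ⟨x.1 - m, by omega⟩ then 0 else 1) + 2 * m := by omega
    rw [h1]
    exact (Nat.ModEq.symm (by simp [Nat.ModEq]))

/-- The images of the two positions of a switch after one step differ by exactly one. -/
theorem step_nb {m : ℕ} (s : ℕ) (c : Fin (2 * m) → Bool) (x : Fin (2 * m)) :
    ((thorpNet m).step s c ((thorpNet m).nb s x) : ℕ) = (thorpNet m).step s c x + 1 ∨
      ((thorpNet m).step s c x : ℕ) = (thorpNet m).step s c ((thorpNet m).nb s x) + 1 := by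
  have hy := thorpNet_nb_val s x
  generalize (thorpNet m).nb s x = y at hy
  rw [thorpNet_step]
  generalize rcoin m c = c
  rw [shuffle_val, shuffle_val]
  by_cases h : x.1 < m
  · rw [if_pos h] at hy
    have h1 : ¬ y.1 < m := by omega
    have h2 : y.1 - m = x.1 := by omega
    rw [dif_pos h, dif_neg h1]
    simp only [h2]
    split_ifs <;> omega
  · rw [if_neg h] at hy
    have h1 : y.1 < m := by omega
    rw [dif_neg h, dif_pos h1]
    simp only [hy]
    split_ifs <;> omega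

/-! ### Arithmetic of the paths -/

/-- A sequence of positions following `y ↦ 2 y + b (mod n)`. -/
theorem path_mod {n : ℕ} {y : ℕ → ℕ} {L : ℕ}
    (hy : ∀ s < L, ∃ b < 2, y (s + 1) ≡ 2 * y s + b [MOD n]) (s : ℕ) :
    ∀ j, s + j ≤ L → ∃ B < 2 ^ j, y (s + j) ≡ 2 ^ j * y s + B [MOD n]
  | 0, _ => ⟨0, by simp, by simp [Nat.ModEq]⟩
  | j + 1, h => by
    obtain ⟨B, hB, h1⟩ := path_mod hy s j (by omega)
    obtain ⟨b, hb, h2⟩ := hy (s + j) (by omega)
    refine ⟨2 * B + b, by rw [pow_succ]; omega, ?_⟩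
    have h3 := (h1.mul_left 2).add_right b
    have h4 := h2.trans h3
    have h5 : 2 * (2 ^ j * y s + B) + b = 2 ^ (j + 1) * y s + (2 * B + b) := by ring
    rw [← h5]
    exact h4

/-- Unique path: with `2 ^ D ≤ n` a path of `D` steps is determined by its end points. -/
theorem path_unique {n : ℕ} {D : ℕ} (hD : 2 ^ D ≤ n) {y z : ℕ → ℕ}
    (hy : ∀ s < D, ∃ b < 2, y (s + 1) ≡ 2 * y s + b [MOD n])
    (hz : ∀ s < D, ∃ b < 2, z (s + 1) ≡ 2 * z s + b [MOD n])
    (h0 : y 0 = z 0) (hend : y D = z D) (s : ℕ) (hs : s ≤ D) : y s ≡ z s [MOD n] := by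
  obtain ⟨B, hB, h1⟩ := path_mod hy 0 s (by omega)
  obtain ⟨B', hB', h1'⟩ := path_mod hz 0 s (by omega)
  obtain ⟨C, hC, h2⟩ := path_mod hy s (D - s) (by omega)
  obtain ⟨C', hC', h2'⟩ := path_mod hz s (D - s) (by omega)
  have hDs : s + (D - s) = D := by omega
  rw [hDs] at h2 h2'
  rw [zero_add] at h1 h1'
  rw [h0] at h1
  -- end points
  have e1 : y D ≡ 2 ^ (D - s) * (2 ^ s * z 0 + B) + C [MOD n] :=
    h2.trans ((h1.mul_left _).add_right _)
  have e2 : z D ≡ 2 ^ (D - s) * (2 ^ s * z 0 + B') + C' [MOD n] :=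
    h2'.trans ((h1'.mul_left _).add_right _)
  rw [hend] at e1
  have e3 := e1.symm.trans e2
  have e4 : 2 ^ D * z 0 + (2 ^ (D - s) * B + C) ≡ 2 ^ D * z 0 + (2 ^ (D - s) * B' + C') [MOD n] := by
    have hp : 2 ^ (D - s) * 2 ^ s = 2 ^ D := by rw [← pow_add]; congr 1; omega
    have a1 : 2 ^ D * z 0 + (2 ^ (D - s) * B + C) = 2 ^ (D - s) * (2 ^ s * z 0 + B) + C := by
      rw [← hp]; ring
    have a2 : 2 ^ D * z 0 + (2 ^ (D - s) * B' + C') = 2 ^ (D - s) * (2 ^ s * z 0 + B') + C' := by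
      rw [← hp]; ring
    rw [a1, a2]
    exact e3
  have e5 := Nat.ModEq.add_left_cancel' _ e4
  have lt1 : ∀ {B C : ℕ}, B < 2 ^ s → C < 2 ^ (D - s) → 2 ^ (D - s) * B + C < n := by
    intro B C hB hC
    have : 2 ^ (D - s) * B + C < 2 ^ (D - s) * (B + 1) := by
      rw [mul_add]; omega
    have h3 : 2 ^ (D - s) * (B + 1) ≤ 2 ^ (D - s) * 2 ^ s := Nat.mul_le_mul_left _ (by omega)
    have hp : 2 ^ (D - s) * 2 ^ s = 2 ^ D := by rw [← pow_add]; congr 1; omega
    omega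
  have e6 : 2 ^ (D - s) * B + C = 2 ^ (D - s) * B' + C' :=
    Nat.ModEq.eq_of_lt_of_lt e5 (lt1 hB hC) (lt1 hB' hC')
  have e7 : B = B' := by
    have hpos : 0 < 2 ^ (D - s) := by positivity
    have q1 : (2 ^ (D - s) * B + C) / 2 ^ (D - s) = B := by
      rw [Nat.mul_add_div hpos, Nat.div_eq_of_lt hC, add_zero]
    have q2 : (2 ^ (D - s) * B' + C') / 2 ^ (D - s) = B' := by
      rw [Nat.mul_add_div hpos, Nat.div_eq_of_lt hC', add_zero]
    rw [← q1, ← q2, e6]
  rw [e7] at h1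
  exact h1.trans h1'.symm

/-- Two paths that are neighbours (differ by one) at time `s` do not sit on one switch at time
`s + j` if `2 ^ (j + 1) ≤ m`. -/
theorem path_ne {m : ℕ} {L : ℕ} {y z : ℕ → ℕ}
    (hy : ∀ s < L, ∃ b < 2, y (s + 1) ≡ 2 * y s + b [MOD 2 * m])
    (hz : ∀ s < L, ∃ b < 2, z (s + 1) ≡ 2 * z s + b [MOD 2 * m])
    {s j : ℕ} (hL : s + j ≤ L) (h1 : z s = y s + 1) (hj : 2 ^ (j + 1) ≤ m) :
    ¬ (z (s + j) ≡ y (s + j) + m [MOD 2 * m]) := by
  intro h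
  obtain ⟨B, hB, e1⟩ := path_mod hy s j hL
  obtain ⟨C, hC, e2⟩ := path_mod hz s j hL
  rw [h1] at e2
  have e3 : 2 ^ j * (y s + 1) + C ≡ 2 ^ j * y s + B + m [MOD 2 * m] :=
    e2.symm.trans (h.trans (e1.add_right m))
  have e4 : 2 ^ j * y s + (2 ^ j + C) ≡ 2 ^ j * y s + (B + m) [MOD 2 * m] := by
    have a1 : 2 ^ j * y s + (2 ^ j + C) = 2 ^ j * (y s + 1) + C := by ring
    rw [a1, ← add_assoc]
    exact e3
  have e5 := Nat.ModEq.add_left_cancel' _ e4
  have hp : 2 ^ (j + 1) = 2 * 2 ^ j := by rw [pow_succ]; ring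
  have e6 : 2 ^ j + C = B + m := Nat.ModEq.eq_of_lt_of_lt e5 (by omega) (by omega)
  omega

end Vale.Agent.P162.H491
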