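import Vale.Agent.P162.H491.ThorpNet

/-!
# P162: unique paths, and two cards meet at most once, for the Thorp network
-/

open Finset Equiv

namespace Vale.Agent.P162.H491

open S2 H72

section generic
variable {X : Type*} (W : Net X)

/-- The coins of the first `s` steps. -/
def cut {L : ℕ} (w : Fin L → X → Bool) (s : ℕ) (hs : s ≤ L) : Fin s → X → Bool :=
  fun i => w (Fin.castLE hs i)

theorem cut_self {L : ℕ} (w : Fin L → X → Bool) (h : L ≤ L) : cut w L h = w := by
  funext i
  rfl

theorem init_cut {L : ℕ} (w : Fin L → X → Bool) (s : ℕ) (hs : s + 1 ≤ L) :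
    Fin.init (cut w (s + 1) hs) = cut w s (by omega) := by
  funext i
  rfl

theorem pos_cut_succ {L : ℕ} (a : ℕ) (w : Fin L → X → Bool) (s : ℕ) (hs : s + 1 ≤ L) :
    W.pos a (s + 1) (cut w (s + 1) hs)
      = W.step (a + s) (w ⟨s, by omega⟩) * W.pos a s (cut w s (by omega)) := by
  rw [Net.pos, init_cut]
  rfl

end generic

variable {m : ℕ}

/-- The path of `x` as a sequence of natural numbers. -/
def path (a L : ℕ) (w : Fin L → Fin (2 * m) → Bool) (x : Fin (2 * m)) (s : ℕ) : ℕ :=
  if hs : s ≤ L then ((thorpNet m).pos a s (cut w s hs) x : ℕ) else 0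

theorem path_eq {a L : ℕ} {w : Fin L → Fin (2 * m) → Bool} {x : Fin (2 * m)} {s : ℕ}
    (hs : s ≤ L) : path a L w x s = ((thorpNet m).pos a s (cut w s hs) x : ℕ) := by
  rw [path, dif_pos hs]

theorem path_step (a L : ℕ) (w : Fin L → Fin (2 * m) → Bool) (x : Fin (2 * m)) :
    ∀ s < L, ∃ b < 2, path a L w x (s + 1) ≡ 2 * path a L w x s + b [MOD 2 * m] := by
  intro s hs
  rw [path_eq (by omega : s + 1 ≤ L), path_eq (by omega : s ≤ L), pos_cut_succ, Perm.mul_apply]
  exact step_mod _ _ _

/-- **Unique path.**  If `2 ^ D ≤ 2 * m`, two coin sequences which send `x` to the same place after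
`D` steps give the same trajectory of `x`. -/
theorem unique_path {D : ℕ} (hD : 2 ^ D ≤ 2 * m) (a : ℕ) (w w' : Fin D → Fin (2 * m) → Bool)
    (x : Fin (2 * m)) (h : (thorpNet m).pos a D w x = (thorpNet m).pos a D w' x) (s : ℕ)
    (hs : s ≤ D) :
    (thorpNet m).pos a s (cut w s hs) x = (thorpNet m).pos a s (cut w' s hs) x := by
  have h1 := path_unique hD (path_step a D w x) (path_step a D w' x)
    (by rw [path_eq (by omega), path_eq (by omega)]; rfl)
    (by rw [path_eq le_rfl, path_eq le_rfl, cut_self, cut_self, h]) s hs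
  rw [path_eq hs, path_eq hs] at h1
  exact Fin.ext (Nat.ModEq.eq_of_lt_of_lt h1 (Fin.isLt _) (Fin.isLt _))

/-- Two cards that share a switch at time `s` do not share a switch at a later time `s'` of the same
window of `D` steps, `2 ^ D ≤ 2 * m`. -/
theorem meet_once {D : ℕ} (hD : 2 ^ D ≤ 2 * m) (a : ℕ) (w : Fin D → Fin (2 * m) → Bool)
    (x z : Fin (2 * m)) {s s' : ℕ} (hss : s < s') (hs' : s' < D)
    (h : (thorpNet m).pos a s (cut w s (by omega)) z
      = (thorpNet m).nb (a + s) ((thorpNet m).pos a s (cut w s (by omega)) x)) :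
    (thorpNet m).pos a s' (cut w s' (by omega)) z
      ≠ (thorpNet m).nb (a + s') ((thorpNet m).pos a s' (cut w s' (by omega)) x) := by
  intro h'
  have hz := path_step a D w z
  have hx := path_step a D w x
  -- neighbours after step `s`
  have e1 : path a D w z (s + 1) = path a D w x (s + 1) + 1 ∨
      path a D w x (s + 1) = path a D w z (s + 1) + 1 := by
    rw [path_eq (by omega : s + 1 ≤ D), path_eq (by omega : s + 1 ≤ D), pos_cut_succ,
      Perm.mul_apply, Perm.mul_apply, h]
    exact step_nb _ _ _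
  -- on one switch at time `s'`
  have e2 : path a D w z s' ≡ path a D w x s' + m [MOD 2 * m] := by
    rw [path_eq (by omega : s' ≤ D), path_eq (by omega : s' ≤ D), h', thorpNet_nb_val]
    split_ifs with hlt
    · exact Nat.ModEq.refl _
    · set y := ((thorpNet m).pos a s' (cut w s' (by omega)) x : ℕ) with hy
      have : y + m = (y - m) + 2 * m := by omega
      rw [this]
      exact Nat.ModEq.symm (by simp [Nat.ModEq])
  have hj : s' = s + 1 + (s' - (s + 1)) := by omega
  have hpow : 2 ^ (s' - (s + 1) + 1) ≤ m := by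
    have h1 : 2 ^ (s' - (s + 1) + 1) * 2 ≤ 2 ^ D := by
      rw [← pow_succ]
      exact Nat.pow_le_pow_right (by norm_num) (by omega)
    omega
  rcases e1 with e1 | e1
  · refine path_ne hx hz (s := s + 1) (j := s' - (s + 1)) (by omega) e1 hpow ?_
    rw [← hj]
    exact e2
  · refine path_ne hz hx (s := s + 1) (j := s' - (s + 1)) (by omega) e1 hpow ?_
    rw [← hj]
    have h2 := (e2.add_right m).symm
    have h3 : path a D w x s' + m + m = path a D w x s' + 2 * m := by ring
    rw [h3] at h2
    exact (Nat.ModEq.symm (by simp [Nat.ModEq])).trans h2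

/-- **At most one meeting.**  In a window of `D` steps, `2 ^ D ≤ 2 * m`, the starting positions of
the cards met by the card `x` at different times are different. -/
theorem partners_ne {D : ℕ} (hD : 2 ^ D ≤ 2 * m) (a : ℕ) (w : Fin D → Fin (2 * m) → Bool)
    (x : Fin (2 * m)) {s s' : ℕ} (hss : s < s') (hs' : s' < D) :
    ((thorpNet m).pos a s (cut w s (by omega)))⁻¹
        ((thorpNet m).nb (a + s) ((thorpNet m).pos a s (cut w s (by omega)) x))
      ≠ ((thorpNet m).pos a s' (cut w s' (by omega)))⁻¹
        ((thorpNet m).nb (a + s') ((thorpNet m).pos a s' (cut w s' (by omega)) x)) := by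
  intro h
  have h2 := congrArg ((thorpNet m).pos a s' (cut w s' (by omega))) h
  rw [Perm.inv_def, Perm.inv_def, Equiv.apply_symm_apply] at h2
  exact meet_once hD a w x _ hss hs' (Equiv.apply_symm_apply _ _) h2

end Vale.Agent.P162.H491
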