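import Vale.Agent.P162.H491.ThorpPath
import Vale.Agent.P162.H790.Count

/-!
# P162: (UP) and (ONE) for the Thorp network of any even deck
-/

open Finset Equiv

namespace Vale.Agent.P162.H491

open S2 H72

variable {m : ℕ}

theorem trk_eq_cut (a : ℕ) (w : ℕ → Fin (2 * m) → Bool) {D s : ℕ} (hs : s ≤ D) :
    H790.trk (thorpNet m) a w s
      = (thorpNet m).pos a s (cut (fun i : Fin D => w i) s hs) := rfl

theorem up_thorp {D : ℕ} (hD : 2 ^ D ≤ 2 * m) (a : ℕ) : H790.UP (thorpNet m) a D := by
  intro w w' x h s hs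
  exact unique_path hD a (fun i : Fin D => w i) (fun i : Fin D => w' i) x h s hs

theorem one_thorp {D : ℕ} (hD : 2 ^ D ≤ 2 * m) (a : ℕ) : H790.ONE (thorpNet m) a D := by
  intro w x s hs t ht h
  rcases lt_trichotomy s t with hlt | heq | hgt
  · exact absurd h (partners_ne hD a (fun i : Fin D => w i) x hlt ht)
  · exact heq
  · exact absurd h.symm (partners_ne hD a (fun i : Fin D => w i) x hgt hs)

end Vale.Agent.P162.H491
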